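import Vale.Agent.Results.P150.A0_GapTwoSided

/-!
# P150: with high probability the relaxation time of SK Glauber dynamics is at most `exp (4 β n)`

For independent standard Gaussian disorder the probability that the spectral gap of heat-bath
Glauber dynamics of the Sherrington-Kirkpatrick model is below `exp (-4 β n)` is at most
`2 * 2 ^ n * exp (-2 n)` (union bound over the configurations, Gaussian tail of the energy and the
deterministic comparison bound); together with the deterministic two-sided bounds.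
-/

namespace Vale.Agent.Results.P150.A00_GapWhp

open Finset MeasureTheory ProbabilityTheory
open Vale.Agent.Results.P150.GapOverlap
open scoped NNReal

/-- The law of the disorder: independent standard Gaussians `ω (i, j)`. -/
noncomputable def disorder (n : ℕ) : Measure (Fin n × Fin n → ℝ) :=
  Measure.pi (fun _ => gaussianReal 0 1)

instance (n : ℕ) : IsProbabilityMeasure (disorder n) := by
  unfold disorder; infer_instance

lemma subG_coord (n : ℕ) (k : Fin n × Fin n) :
    HasSubgaussianMGF (fun ω : Fin n × Fin n → ℝ => ω k) 1 (disorder n) where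
  integrable_exp_mul t := by
    unfold disorder
    exact integrable_comp_eval (μ := fun _ : Fin n × Fin n => gaussianReal 0 1) (i := k)
      (f := fun y => Real.exp (t * y)) (integrable_exp_mul_gaussianReal t)
  mgf_le t := by
    have h := mgf_gaussianReal (p := disorder n) (X := fun ω : Fin n × Fin n → ℝ => ω k)
      (μ := 0) (v := 1)
      (measurePreserving_eval (fun _ : Fin n × Fin n => gaussianReal 0 1) k).map_eq t
    rw [h]
    simp

lemma subG_scaled (n : ℕ) (k : Fin n × Fin n) (r : ℝ) (c : ℝ≥0) (hc : r ^ 2 ≤ c) :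
    HasSubgaussianMGF (fun ω : Fin n × Fin n → ℝ => r * ω k) c (disorder n) where
  integrable_exp_mul t := by
    have := (subG_coord n k).integrable_exp_mul (t * r)
    simpa [mul_assoc] using this
  mgf_le t := by
    have h := (subG_coord n k).mgf_le (t * r)
    have he : mgf (fun ω : Fin n × Fin n → ℝ => r * ω k) (disorder n) t =
        mgf (fun ω : Fin n × Fin n → ℝ => ω k) (disorder n) (t * r) := by
      simp only [mgf, mul_assoc]
    rw [he]
    refine h.trans (Real.exp_le_exp.mpr ?_)
    have h2 := sq_nonneg t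
    simp only [NNReal.coe_one, one_mul]
    nlinarith [mul_le_mul_of_nonneg_right hc h2]

lemma subG_mono {Ω : Type*} {m : MeasurableSpace Ω} {μ : Measure Ω} {X : Ω → ℝ} {c c' : ℝ≥0}
    (h : HasSubgaussianMGF X c μ) (hc : c ≤ c') : HasSubgaussianMGF X c' μ where
  integrable_exp_mul := h.integrable_exp_mul
  mgf_le t := (h.mgf_le t).trans (by
    apply Real.exp_le_exp.mpr
    have : (c : ℝ) ≤ c' := hc
    have h2 := sq_nonneg t
    nlinarith)

lemma energy_eq {n : ℕ} (β : ℝ) (ω : Fin n × Fin n → ℝ) (x : Fin n → Bool) :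
    energy β (fun i j => ω (i, j)) x =
      ∑ k ∈ univ.filter (fun k : Fin n × Fin n => k.1 < k.2),
        (β / Real.sqrt n * spin x k.1 * spin x k.2) * ω k := by
  unfold energy
  rw [mul_sum, sum_filter, Fintype.sum_prod_type]
  apply sum_congr rfl; intro i _
  rw [sum_filter, mul_sum]
  apply sum_congr rfl; intro j _
  split_ifs <;> ring

lemma tail {n : ℕ} (hn : 2 ≤ n) (β : ℝ) (hβ : 0 < β) (s : ℝ) (hs : s ^ 2 = 1) (x : Fin n → Bool) :
    (disorder n).real {ω | 2 * β * n ≤ s * energy β (fun i j => ω (i, j)) x} ≤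
      Real.exp (-(2 * n)) := by
  have hnR : (0 : ℝ) < n := by exact_mod_cast (by omega : 0 < n)
  set S := univ.filter (fun k : Fin n × Fin n => k.1 < k.2) with hS
  set r : Fin n × Fin n → ℝ := fun k => s * (β / Real.sqrt n * spin x k.1 * spin x k.2) with hr
  have hindep : iIndepFun (fun (k : Fin n × Fin n) (ω : Fin n × Fin n → ℝ) => r k * ω k)
      (disorder n) := by
    unfold disorder
    exact iIndepFun_pi (X := fun k y => r k * y) (fun k => by fun_prop)
  have hr2 : ∀ k, r k ^ 2 = β ^ 2 / n := by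
    intro k
    have h1 := spin_sq x k.1
    have h2 := spin_sq x k.2
    have h3 : Real.sqrt n ^ 2 = n := Real.sq_sqrt hnR.le
    simp only [hr]
    calc (s * (β / Real.sqrt n * spin x k.1 * spin x k.2)) ^ 2
        = s ^ 2 * (β ^ 2 / Real.sqrt n ^ 2) * (spin x k.1 * spin x k.1) *
          (spin x k.2 * spin x k.2) := by ring
      _ = β ^ 2 / n := by rw [hs, h1, h2, h3]; ring
  set c0 : ℝ≥0 := Real.toNNReal (β ^ 2 / n) with hc0
  set C : ℝ≥0 := Real.toNNReal (β ^ 2 * n) with hC
  have hsub : ∀ k ∈ S, HasSubgaussianMGF (fun ω : Fin n × Fin n → ℝ => r k * ω k)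
      c0 (disorder n) := by
    intro k _
    apply subG_scaled
    rw [hr2 k, hc0, Real.coe_toNNReal _ (by positivity)]
  have hsum := HasSubgaussianMGF.sum_of_iIndepFun hindep hsub
  have hle : ∑ _k ∈ S, c0 ≤ C := by
    apply NNReal.coe_le_coe.mp
    rw [NNReal.coe_sum, sum_const, nsmul_eq_mul, hc0, hC, Real.coe_toNNReal _ (by positivity),
      Real.coe_toNNReal _ (by positivity)]
    have hcard : (S.card : ℝ) ≤ (n : ℝ) ^ 2 := by
      have : S.card ≤ (univ : Finset (Fin n × Fin n)).card := card_le_card (filter_subset _ _)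
      have h2 : (univ : Finset (Fin n × Fin n)).card = n ^ 2 := by
        simp [sq]
      rw [h2] at this
      exact_mod_cast this
    calc (S.card : ℝ) * (β ^ 2 / n) ≤ (n : ℝ) ^ 2 * (β ^ 2 / n) :=
          mul_le_mul_of_nonneg_right hcard (by positivity)
      _ = β ^ 2 * n := by field_simp
  have hfin := (subG_mono hsum hle).measure_ge_le (ε := 2 * β * n) (by positivity)
  have hset : {ω : Fin n × Fin n → ℝ | 2 * β * n ≤ s * energy β (fun i j => ω (i, j)) x} =
      {ω | 2 * β * n ≤ ∑ k ∈ S, r k * ω k} := by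
    ext ω
    simp only [Set.mem_ofPred_eq]
    rw [energy_eq, mul_sum]
    have : ∀ k ∈ S, s * ((β / Real.sqrt n * spin x k.1 * spin x k.2) * ω k) = r k * ω k := by
      intro k _; simp only [hr]; ring
    rw [sum_congr rfl this]
  rw [hset]
  refine hfin.trans (le_of_eq ?_)
  congr 1
  rw [hC, Real.coe_toNNReal _ (by positivity)]
  field_simp

theorem whp {n : ℕ} (hn : 2 ≤ n) (β : ℝ) (hβ : 0 < β) :
    (disorder n).real {ω | gap β (fun i j => ω (i, j)) < Real.exp (-(4 * β * n))} ≤
      2 * 2 ^ n * Real.exp (-(2 * n)) := by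
  have hsub : {ω : Fin n × Fin n → ℝ | gap β (fun i j => ω (i, j)) < Real.exp (-(4 * β * n))} ⊆
      ⋃ x : Fin n → Bool, ({ω | 2 * β * n ≤ 1 * energy β (fun i j => ω (i, j)) x} ∪
        {ω | 2 * β * n ≤ (-1) * energy β (fun i j => ω (i, j)) x}) := by
    intro ω hω
    by_contra hcon
    simp only [Set.mem_iUnion, Set.mem_union, Set.mem_ofPred_eq, not_exists, not_or, not_le]
      at hcon
    have h := A0_GapTwoSided.gap_lower hn β (fun i j => ω (i, j)) (-(2 * β * n)) (2 * β * n)
      (fun x => ⟨by have := (hcon x).2; linarith, by have := (hcon x).1; linarith⟩)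
    have h2 : -(2 * β * n) - 2 * β * n = -(4 * β * n) := by ring
    rw [h2] at h
    exact absurd hω (not_lt.mpr h)
  calc (disorder n).real _ ≤ (disorder n).real (⋃ x : Fin n → Bool,
        ({ω | 2 * β * n ≤ 1 * energy β (fun i j => ω (i, j)) x} ∪
        {ω | 2 * β * n ≤ (-1) * energy β (fun i j => ω (i, j)) x})) := measureReal_mono hsub
    _ ≤ ∑ x : Fin n → Bool, (disorder n).real
        ({ω | 2 * β * n ≤ 1 * energy β (fun i j => ω (i, j)) x} ∪
        {ω | 2 * β * n ≤ (-1) * energy β (fun i j => ω (i, j)) x}) :=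
        measureReal_iUnion_fintype_le _
    _ ≤ ∑ _x : Fin n → Bool, (Real.exp (-(2 * n)) + Real.exp (-(2 * n))) := by
        apply sum_le_sum
        intro x _
        exact (measureReal_union_le _ _).trans
          (add_le_add (tail hn β hβ 1 (by norm_num) x) (tail hn β hβ (-1) (by norm_num) x))
    _ = 2 * 2 ^ n * Real.exp (-(2 * n)) := by
        simp
        ring

theorem result {n : ℕ} (hn : 2 ≤ n) (β : ℝ) (hβ : 0 < β) :
    (disorder n).real {ω | gap β (fun i j => ω (i, j)) < Real.exp (-(4 * β * n))} ≤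
      2 * 2 ^ n * Real.exp (-(2 * n)) ∧
    ∀ g : Fin n → Fin n → ℝ,
      (∀ a b : ℝ, (∀ x, a ≤ energy β g x ∧ energy β g x ≤ b) → Real.exp (a - b) ≤ gap β g) ∧
      (∀ v : Fin n → ℝ, v ≠ 0 →
        0 < ∑ i, ∑ j, v i * v j * A_GapCovariance.corr β g i j ∧
        gap β g ≤ (∑ i, v i ^ 2 * A_GapCovariance.condVar β g i) /
          ∑ i, ∑ j, v i * v j * A_GapCovariance.corr β g i j ∧
        gap β g ≤ (∑ i, v i ^ 2) / ∑ i, ∑ j, v i * v j * A_GapCovariance.corr β g i j) ∧
      (∀ i, 0 < A_GapCovariance.condVar β g i ∧ A_GapCovariance.condVar β g i ≤ 1 ∧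
        gap β g ≤ A_GapCovariance.condVar β g i) ∧
      (0 < overlapSq β g ∧ gap β g ≤ 1 / (n * overlapSq β g)) :=
  ⟨whp hn β hβ, fun g => A0_GapTwoSided.result hn β g⟩

end Vale.Agent.Results.P150.A00_GapWhp
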