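import Vale.Agent.Results.P150.A_GapCovariance

/-!
# P150: two-sided deterministic bounds on the spectral gap of SK Glauber dynamics

For every realisation of the disorder and every `β`: if the exponent of the Gibbs weight takes its
values in `[a, b]` then `exp (a - b) ≤ gap` (comparison with the uniform measure, for which the
Efron-Stein inequality is proved by induction on the number of spins); together with the upper
bounds on the gap by the Rayleigh quotients of linear functions and by the overlap.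
-/

namespace Vale.Agent.Results.P150.A0_GapTwoSided

open Finset
open Vale.Agent.Results.P150.GapOverlap

lemma sum_cons {n : ℕ} (F : (Fin (n + 1) → Bool) → ℝ) :
    ∑ x, F x = ∑ x : Fin n → Bool, F (Fin.cons false x) +
      ∑ x : Fin n → Bool, F (Fin.cons true x) := by
  rw [← (Fin.consEquiv (fun _ => Bool)).sum_comp, Fintype.sum_prod_type, Fintype.sum_bool]
  simp only [Fin.consEquiv, Equiv.coe_fn_mk]
  rw [add_comm]

lemma flip_cons_zero {n : ℕ} (b : Bool) (x : Fin n → Bool) :
    GapOverlap.flip (Fin.cons b x : Fin (n + 1) → Bool) 0 = Fin.cons (!b) x := by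
  unfold GapOverlap.flip
  rw [Fin.cons_zero, Fin.update_cons_zero]

lemma flip_cons_succ {n : ℕ} (b : Bool) (x : Fin n → Bool) (i : Fin n) :
    GapOverlap.flip (Fin.cons b x : Fin (n + 1) → Bool) i.succ =
      Fin.cons b (GapOverlap.flip x i) := by
  unfold GapOverlap.flip
  rw [Fin.cons_succ, Fin.cons_update]

/-- The Efron-Stein (Poincare) inequality for the uniform measure on the cube, unnormalised. -/
lemma efron_stein : ∀ (n : ℕ) (f : (Fin n → Bool) → ℝ),
    (2 : ℝ) ^ n * ∑ x, f x ^ 2 - (∑ x, f x) ^ 2 ≤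
      (2 : ℝ) ^ n / 4 * ∑ i, ∑ x, (f x - f (GapOverlap.flip x i)) ^ 2 := by
  intro n
  induction n with
  | zero =>
    intro f
    simp
  | succ n ih =>
    intro f
    have h0 := ih (fun x => f (Fin.cons false x))
    have h1 := ih (fun x => f (Fin.cons true x))
    have hcs : (∑ x : Fin n → Bool, (f (Fin.cons false x) - f (Fin.cons true x))) ^ 2 ≤
        (2 : ℝ) ^ n * ∑ x : Fin n → Bool, (f (Fin.cons false x) - f (Fin.cons true x)) ^ 2 := by
      have := sq_sum_le_card_mul_sum_sq (s := (univ : Finset (Fin n → Bool)))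
        (f := fun x => f (Fin.cons false x) - f (Fin.cons true x))
      simpa using this
    rw [Fin.sum_univ_succ, sum_cons (fun x => f x ^ 2), sum_cons f,
      sum_cons (fun x => (f x - f (GapOverlap.flip x 0)) ^ 2)]
    have h2 : ∀ i : Fin n, ∑ x, (f x - f (GapOverlap.flip x i.succ)) ^ 2 =
        ∑ x : Fin n → Bool, (f (Fin.cons false x) - f (Fin.cons false (GapOverlap.flip x i))) ^ 2 +
        ∑ x : Fin n → Bool, (f (Fin.cons true x) - f (Fin.cons true (GapOverlap.flip x i))) ^ 2 := by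
      intro i
      rw [sum_cons]
      simp only [flip_cons_succ]
    rw [sum_congr rfl (fun i _ => h2 i), sum_add_distrib]
    simp only [flip_cons_zero, Bool.not_false, Bool.not_true]
    have h3 : ∑ x : Fin n → Bool, (f (Fin.cons true x) - f (Fin.cons false x)) ^ 2 =
        ∑ x : Fin n → Bool, (f (Fin.cons false x) - f (Fin.cons true x)) ^ 2 := by
      apply sum_congr rfl; intro x _; ring
    rw [h3]
    rw [sum_sub_distrib] at hcs
    rw [pow_succ]
    nlinarith [h0, h1, hcs]

variable {n : ℕ}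

lemma variance_le (β : ℝ) (g : Fin n → Fin n → ℝ) (f : (Fin n → Bool) → ℝ) (c : ℝ) :
    variance β g f ≤ ∑ x, gibbs β g x * (f x - c) ^ 2 := by
  unfold variance
  set m := ∑ y, gibbs β g y * f y with hm
  have h1 : ∑ x, gibbs β g x * (f x - c) ^ 2 - ∑ x, gibbs β g x * (f x - m) ^ 2 =
      (m - c) ^ 2 := by
    rw [← sum_sub_distrib]
    have h2 : ∀ x, gibbs β g x * (f x - c) ^ 2 - gibbs β g x * (f x - m) ^ 2 =
        (m - c) * (2 * (gibbs β g x * f x)) - (m - c) * (c + m) * gibbs β g x := by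
      intro x; ring
    rw [sum_congr rfl (fun x _ => h2 x), sum_sub_distrib, ← mul_sum, ← mul_sum, ← mul_sum,
      sum_gibbs, ← hm]
    ring
  nlinarith [sq_nonneg (m - c)]

lemma sum_sq_center (f : (Fin n → Bool) → ℝ) :
    (2 : ℝ) ^ n * ∑ x, (f x - (∑ y, f y) / (2 : ℝ) ^ n) ^ 2 =
      (2 : ℝ) ^ n * ∑ x, f x ^ 2 - (∑ x, f x) ^ 2 := by
  set S := ∑ y, f y with hS
  set c := S / (2 : ℝ) ^ n with hc
  have hN : (2 : ℝ) ^ n ≠ 0 := by positivity
  have h1 : ∑ x, (f x - c) ^ 2 = ∑ x, f x ^ 2 - 2 * c * S + (2 : ℝ) ^ n * c ^ 2 := by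
    have h2 : ∀ x, (f x - c) ^ 2 = f x ^ 2 - 2 * c * f x + c ^ 2 := by intro x; ring
    rw [sum_congr rfl (fun x _ => h2 x), sum_add_distrib, sum_sub_distrib, ← mul_sum, ← hS]
    simp
  rw [h1, hc]
  field_simp
  ring

/-- Comparison with the uniform measure. -/
lemma gap_lower (hn : 2 ≤ n) (β : ℝ) (g : Fin n → Fin n → ℝ) (a b : ℝ)
    (hab : ∀ x, a ≤ energy β g x ∧ energy β g x ≤ b) : Real.exp (a - b) ≤ gap β g := by
  set Z := ∑ y, Real.exp (energy β g y) with hZ
  have hZpos : 0 < Z := sum_pos (fun y _ => Real.exp_pos _) ⟨fun _ => true, mem_univ _⟩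
  set lo := Real.exp a / Z with hlo
  set hi := Real.exp b / Z with hhi
  have hlopos : 0 < lo := div_pos (Real.exp_pos _) hZpos
  have hhipos : 0 < hi := div_pos (Real.exp_pos _) hZpos
  have hl : ∀ x, lo ≤ gibbs β g x := by
    intro x
    unfold gibbs
    exact div_le_div_of_nonneg_right (Real.exp_le_exp.mpr (hab x).1) hZpos.le
  have hh : ∀ x, gibbs β g x ≤ hi := by
    intro x
    unfold gibbs
    exact div_le_div_of_nonneg_right (Real.exp_le_exp.mpr (hab x).2) hZpos.le
  have hlohi : lo = Real.exp (a - b) * hi := by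
    rw [hlo, hhi, ← mul_div_assoc, ← Real.exp_add]
    congr 2
    ring
  have key : ∀ f : (Fin n → Bool) → ℝ, Real.exp (a - b) * variance β g f ≤ dirichlet β g f := by
    intro f
    set T := ∑ i, ∑ x, (f x - f (GapOverlap.flip x i)) ^ 2 with hT
    have hN : (0 : ℝ) < (2 : ℝ) ^ n := by positivity
    have hV : variance β g f ≤ hi / 4 * T := by
      have h1 := variance_le β g f ((∑ y, f y) / (2 : ℝ) ^ n)
      have h2 : ∑ x, gibbs β g x * (f x - (∑ y, f y) / (2 : ℝ) ^ n) ^ 2 ≤
          hi * ∑ x, (f x - (∑ y, f y) / (2 : ℝ) ^ n) ^ 2 := by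
        rw [mul_sum]
        exact sum_le_sum (fun x _ => mul_le_mul_of_nonneg_right (hh x) (sq_nonneg _))
      have h3 : ∑ x, (f x - (∑ y, f y) / (2 : ℝ) ^ n) ^ 2 ≤ T / 4 := by
        have h4 := efron_stein n f
        rw [← sum_sq_center f] at h4
        have h5 : (2 : ℝ) ^ n / 4 * T = (2 : ℝ) ^ n * (T / 4) := by ring
        rw [← hT, h5] at h4
        exact le_of_mul_le_mul_left h4 hN
      calc variance β g f ≤ hi * ∑ x, (f x - (∑ y, f y) / (2 : ℝ) ^ n) ^ 2 := h1.trans h2
        _ ≤ hi * (T / 4) := mul_le_mul_of_nonneg_left h3 hhipos.le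
        _ = hi / 4 * T := by ring
    have hD : lo / 4 * T ≤ dirichlet β g f := by
      rw [dirichlet_eq, hT, mul_sum]
      apply sum_le_sum; intro i _
      rw [mul_sum]
      apply sum_le_sum; intro x _
      have ha := gibbs_pos β g x
      have hb := gibbs_pos β g (GapOverlap.flip x i)
      have h1 : lo / 2 ≤ gibbs β g x * gibbs β g (GapOverlap.flip x i) /
          (gibbs β g x + gibbs β g (GapOverlap.flip x i)) := by
        rw [le_div_iff₀ (by positivity)]
        have h2 := mul_le_mul_of_nonneg_right (hl x) hb.le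
        have h3 := mul_le_mul_of_nonneg_left (hl (GapOverlap.flip x i)) ha.le
        nlinarith
      have h4 := mul_le_mul_of_nonneg_right h1 (sq_nonneg (f x - f (GapOverlap.flip x i)))
      nlinarith
    calc Real.exp (a - b) * variance β g f ≤ Real.exp (a - b) * (hi / 4 * T) :=
          mul_le_mul_of_nonneg_left hV (Real.exp_pos _).le
      _ = lo / 4 * T := by rw [hlohi]; ring
      _ ≤ _ := hD
  unfold gap
  apply le_csInf
  · have hv : (fun _ : Fin n => (1 : ℝ)) ≠ 0 := by
      intro h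
      have := congrFun h ⟨0, by omega⟩
      simp at this
    exact ⟨_, A_GapCovariance.lin _, (A_GapCovariance.variance_lin_pos β g hv).ne', rfl⟩
  · rintro r ⟨f, hf, rfl⟩
    have hpos : 0 < variance β g f := lt_of_le_of_ne (variance_nonneg β g f) (Ne.symm hf)
    rw [le_div_iff₀ hpos]
    exact key f

theorem result (hn : 2 ≤ n) (β : ℝ) (g : Fin n → Fin n → ℝ) :
    (∀ a b : ℝ, (∀ x, a ≤ energy β g x ∧ energy β g x ≤ b) → Real.exp (a - b) ≤ gap β g) ∧
    (∀ v : Fin n → ℝ, v ≠ 0 →
      0 < ∑ i, ∑ j, v i * v j * A_GapCovariance.corr β g i j ∧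
      gap β g ≤ (∑ i, v i ^ 2 * A_GapCovariance.condVar β g i) /
        ∑ i, ∑ j, v i * v j * A_GapCovariance.corr β g i j ∧
      gap β g ≤ (∑ i, v i ^ 2) / ∑ i, ∑ j, v i * v j * A_GapCovariance.corr β g i j) ∧
    (∀ i, 0 < A_GapCovariance.condVar β g i ∧ A_GapCovariance.condVar β g i ≤ 1 ∧
      gap β g ≤ A_GapCovariance.condVar β g i) ∧
    (0 < overlapSq β g ∧ gap β g ≤ 1 / (n * overlapSq β g)) :=
  ⟨fun a b hab => gap_lower hn β g a b hab, A_GapCovariance.result hn β g⟩

end Vale.Agent.Results.P150.A0_GapTwoSided
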