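import Vale.Agent.Results.P150.GapOverlap

/-!
# P150: the spectral gap of SK Glauber dynamics and the covariance matrix of the spins

For every realisation of the disorder and every `β`, the Rayleigh quotient of a linear function
`∑ v_i x_i` is computed exactly, which bounds the spectral gap of heat-bath Glauber dynamics of
the Sherrington-Kirkpatrick Gibbs measure by
`(∑ v_i² E[Var(x_i | x_{-i})]) / (∑ v_i v_j ⟨x_i x_j⟩)` for every `v ≠ 0`; in particular the
relaxation time is at least the largest eigenvalue of the matrix `⟨x_i x_j⟩`.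
-/

namespace Vale.Agent.Results.P150.A_GapCovariance

open Finset
open Vale.Agent.Results.P150.GapOverlap

variable {n : ℕ}

/-- The two-point function `⟨x_i x_j⟩` of the SK Gibbs measure (the covariance of the spins
`i` and `j`, since the spins are centred in zero field). -/
noncomputable def corr (β : ℝ) (g : Fin n → Fin n → ℝ) (i j : Fin n) : ℝ :=
  ∑ x, gibbs β g x * (spin x i * spin x j)

/-- The mean conditional variance `E_μ[1 - (Q_i x_i)²] = E_μ[1 - tanh² h_i]` of the spin `i`
given the other spins. -/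
noncomputable def condVar (β : ℝ) (g : Fin n → Fin n → ℝ) (i : Fin n) : ℝ :=
  ∑ x, gibbs β g x * (1 - condExp β g i (fun y => spin y i) x ^ 2)

/-- The linear function `∑ v_j x_j`. -/
def lin (v : Fin n → ℝ) (x : Fin n → Bool) : ℝ := ∑ j, v j * spin x j

lemma lin_flip (v : Fin n → ℝ) (x : Fin n → Bool) (i : Fin n) :
    lin v x - lin v (GapOverlap.flip x i) = 2 * (v i * spin x i) := by
  unfold lin
  rw [← sum_sub_distrib, sum_eq_single i]
  · rw [spin_flip_self]; ring
  · intro j _ hj
    rw [spin_flip_of_ne x hj]; ring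
  · intro h; exact absurd (mem_univ i) h

lemma mean_lin (β : ℝ) (g : Fin n → Fin n → ℝ) (v : Fin n → ℝ) :
    ∑ x, gibbs β g x * lin v x = 0 := by
  have h1 : ∑ x, gibbs β g x * lin v x = ∑ x, gibbs β g x * (-lin v x) := by
    conv_lhs => rw [← Equiv.sum_comp negEquiv]
    apply sum_congr rfl
    intro x _
    rw [gibbs_neg]
    congr 1
    unfold lin
    rw [← sum_neg_distrib]
    apply sum_congr rfl
    intro i _
    rw [spin_neg]; ring
  have h2 : ∑ x, gibbs β g x * (-lin v x) = -∑ x, gibbs β g x * lin v x := by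
    rw [← sum_neg_distrib]; apply sum_congr rfl; intro x _; ring
  linarith

lemma variance_lin' (β : ℝ) (g : Fin n → Fin n → ℝ) (v : Fin n → ℝ) :
    variance β g (lin v) = ∑ x, gibbs β g x * lin v x ^ 2 := by
  unfold variance
  rw [mean_lin]
  simp

lemma variance_lin (β : ℝ) (g : Fin n → Fin n → ℝ) (v : Fin n → ℝ) :
    variance β g (lin v) = ∑ i, ∑ j, v i * v j * corr β g i j := by
  rw [variance_lin']
  have h : ∀ x, gibbs β g x * lin v x ^ 2 =
      ∑ i, ∑ j, v i * v j * (gibbs β g x * (spin x i * spin x j)) := by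
    intro x
    unfold lin
    rw [sq, sum_mul_sum, mul_sum]
    apply sum_congr rfl; intro i _
    rw [mul_sum]
    apply sum_congr rfl; intro j _
    ring
  rw [sum_congr rfl (fun x _ => h x), sum_comm]
  apply sum_congr rfl; intro i _
  rw [sum_comm]
  apply sum_congr rfl; intro j _
  unfold corr
  rw [mul_sum]

lemma condVar_eq (β : ℝ) (g : Fin n → Fin n → ℝ) (i : Fin n) :
    condVar β g i = ∑ x, 2 * (gibbs β g x * gibbs β g (GapOverlap.flip x i) /
      (gibbs β g x + gibbs β g (GapOverlap.flip x i))) := by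
  have h1 : ∀ x, gibbs β g x * (1 - condExp β g i (fun y => spin y i) x ^ 2) =
      4 * gibbs β g x ^ 2 * gibbs β g (GapOverlap.flip x i) /
        (gibbs β g x + gibbs β g (GapOverlap.flip x i)) ^ 2 := by
    intro x
    have ha := gibbs_pos β g x
    have hb := gibbs_pos β g (GapOverlap.flip x i)
    have hs := spin_sq x i
    unfold condExp
    beta_reduce
    rw [spin_flip_self]
    have h2 : (gibbs β g x * spin x i + gibbs β g (GapOverlap.flip x i) * -spin x i) /
        (gibbs β g x + gibbs β g (GapOverlap.flip x i)) =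
        spin x i * ((gibbs β g x - gibbs β g (GapOverlap.flip x i)) /
          (gibbs β g x + gibbs β g (GapOverlap.flip x i))) := by ring
    rw [h2, mul_pow, sq (spin x i), hs, one_mul]
    field_simp
    ring
  unfold condVar
  rw [sum_congr rfl (fun x _ => h1 x)]
  have h3 : ∑ x, 4 * gibbs β g x ^ 2 * gibbs β g (GapOverlap.flip x i) /
        (gibbs β g x + gibbs β g (GapOverlap.flip x i)) ^ 2 =
      ∑ x, 4 * gibbs β g (GapOverlap.flip x i) ^ 2 * gibbs β g x /
        (gibbs β g x + gibbs β g (GapOverlap.flip x i)) ^ 2 := by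
    rw [← Equiv.sum_comp (flipEquiv i)]
    apply sum_congr rfl
    intro x _
    simp only [flipEquiv, Equiv.coe_fn_mk, GapOverlap.flip_flip]
    rw [add_comm (gibbs β g (GapOverlap.flip x i))]
  have h4 : ∀ S T : ℝ, S = T → S = (1 / 2) * (S + T) := by intro S T h; rw [h]; ring
  rw [h4 _ _ h3, ← sum_add_distrib, mul_sum]
  apply sum_congr rfl
  intro x _
  have ha := gibbs_pos β g x
  have hb := gibbs_pos β g (GapOverlap.flip x i)
  field_simp
  ring

lemma dirichlet_lin (β : ℝ) (g : Fin n → Fin n → ℝ) (v : Fin n → ℝ) :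
    dirichlet β g (lin v) = ∑ i, v i ^ 2 * condVar β g i := by
  rw [dirichlet_eq]
  apply sum_congr rfl; intro i _
  rw [condVar_eq, mul_sum]
  apply sum_congr rfl; intro x _
  rw [lin_flip]
  have hs := spin_sq x i
  have h : (2 * (v i * spin x i)) ^ 2 = 4 * v i ^ 2 * (spin x i * spin x i) := by ring
  rw [h, hs]; ring

lemma condVar_pos (β : ℝ) (g : Fin n → Fin n → ℝ) (i : Fin n) : 0 < condVar β g i := by
  rw [condVar_eq]
  apply sum_pos
  · intro x _
    have ha := gibbs_pos β g x
    have hb := gibbs_pos β g (GapOverlap.flip x i)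
    positivity
  · exact ⟨fun _ => true, mem_univ _⟩

lemma condVar_le_one (β : ℝ) (g : Fin n → Fin n → ℝ) (i : Fin n) : condVar β g i ≤ 1 := by
  rw [condVar_eq]
  have h6 : ∀ x, 2 * (gibbs β g x * gibbs β g (GapOverlap.flip x i) /
      (gibbs β g x + gibbs β g (GapOverlap.flip x i))) ≤
      (1 / 2) * (gibbs β g x + gibbs β g (GapOverlap.flip x i)) := by
    intro x
    have ha := gibbs_pos β g x
    have hb := gibbs_pos β g (GapOverlap.flip x i)
    have h7 : gibbs β g x * gibbs β g (GapOverlap.flip x i) / (gibbs β g x + gibbs β g (GapOverlap.flip x i)) ≤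
        (gibbs β g x + gibbs β g (GapOverlap.flip x i)) / 4 := by
      rw [div_le_iff₀ (by positivity)]
      nlinarith [sq_nonneg (gibbs β g x - gibbs β g (GapOverlap.flip x i))]
    linarith
  calc _ ≤ ∑ x, (1 / 2) * (gibbs β g x + gibbs β g (GapOverlap.flip x i)) :=
        sum_le_sum (fun x _ => h6 x)
    _ = 1 := by
        rw [← mul_sum, sum_add_distrib, sum_gibbs]
        have h8 : ∑ x, gibbs β g (GapOverlap.flip x i) = 1 := by
          have := Equiv.sum_comp (flipEquiv i) (fun x => gibbs β g x)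
          simp only [flipEquiv, Equiv.coe_fn_mk] at this
          rw [this, sum_gibbs]
        rw [h8]; norm_num

lemma variance_lin_pos (β : ℝ) (g : Fin n → Fin n → ℝ) {v : Fin n → ℝ} (hv : v ≠ 0) :
    0 < variance β g (lin v) := by
  rw [variance_lin']
  set x0 : Fin n → Bool := fun j => decide (0 ≤ v j) with hx0
  have h1 : ∀ j, v j * spin x0 j = |v j| := by
    intro j
    unfold spin
    by_cases h : 0 ≤ v j
    · simp [hx0, h, abs_of_nonneg h]
    · simp [hx0, h, abs_of_neg (not_le.mp h)]
  have h2 : 0 < lin v x0 := by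
    unfold lin
    rw [sum_congr rfl (fun j _ => h1 j)]
    obtain ⟨j, hj⟩ := Function.ne_iff.mp hv
    exact sum_pos' (fun j _ => abs_nonneg _) ⟨j, mem_univ j, abs_pos.mpr hj⟩
  have h3 : 0 < gibbs β g x0 * lin v x0 ^ 2 := by
    have ha := gibbs_pos β g x0
    positivity
  refine lt_of_lt_of_le h3 ?_
  refine single_le_sum (f := fun x => gibbs β g x * lin v x ^ 2) ?_ (mem_univ x0)
  intro x _
  have ha := gibbs_pos β g x
  positivity

theorem result (hn : 2 ≤ n) (β : ℝ) (g : Fin n → Fin n → ℝ) :
    (∀ v : Fin n → ℝ, v ≠ 0 →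
      0 < ∑ i, ∑ j, v i * v j * corr β g i j ∧
      gap β g ≤ (∑ i, v i ^ 2 * condVar β g i) / ∑ i, ∑ j, v i * v j * corr β g i j ∧
      gap β g ≤ (∑ i, v i ^ 2) / ∑ i, ∑ j, v i * v j * corr β g i j) ∧
    (∀ i, 0 < condVar β g i ∧ condVar β g i ≤ 1 ∧ gap β g ≤ condVar β g i) ∧
    (0 < overlapSq β g ∧ gap β g ≤ 1 / (n * overlapSq β g)) := by
  have hbdd : BddBelow {r | ∃ f : (Fin n → Bool) → ℝ, variance β g f ≠ 0 ∧
      r = dirichlet β g f / variance β g f} := by
    refine ⟨0, ?_⟩
    rintro r ⟨f, _, rfl⟩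
    exact div_nonneg (dirichlet_nonneg β g f) (variance_nonneg β g f)
  have main : ∀ v : Fin n → ℝ, v ≠ 0 →
      0 < ∑ i, ∑ j, v i * v j * corr β g i j ∧
      gap β g ≤ (∑ i, v i ^ 2 * condVar β g i) / ∑ i, ∑ j, v i * v j * corr β g i j := by
    intro v hv
    have hpos := variance_lin_pos β g hv
    have h1 : gap β g ≤ dirichlet β g (lin v) / variance β g (lin v) :=
      csInf_le hbdd ⟨lin v, hpos.ne', rfl⟩
    rw [dirichlet_lin] at h1
    rw [variance_lin] at h1 hpos
    exact ⟨hpos, h1⟩
  refine ⟨?_, ?_, GapOverlap.result hn β g⟩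
  · intro v hv
    obtain ⟨hpos, h1⟩ := main v hv
    refine ⟨hpos, h1, h1.trans ?_⟩
    apply div_le_div_of_nonneg_right _ hpos.le
    apply sum_le_sum
    intro i _
    have := condVar_le_one β g i
    nlinarith [sq_nonneg (v i)]
  · intro i
    refine ⟨condVar_pos β g i, condVar_le_one β g i, ?_⟩
    have hv : (Pi.single i (1 : ℝ) : Fin n → ℝ) ≠ 0 := by
      intro h
      have := congrFun h i
      simp at this
    obtain ⟨_, h1⟩ := main _ hv
    have h2 : ∑ j, (Pi.single i (1 : ℝ) : Fin n → ℝ) j ^ 2 * condVar β g j = condVar β g i := by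
      rw [sum_eq_single i]
      · simp
      · intro j _ hj
        simp [Pi.single_eq_of_ne hj]
      · intro h; exact absurd (mem_univ i) h
    have h3 : ∑ j, ∑ k, (Pi.single i (1 : ℝ) : Fin n → ℝ) j *
        (Pi.single i (1 : ℝ) : Fin n → ℝ) k * corr β g j k = 1 := by
      rw [sum_eq_single i]
      · rw [sum_eq_single i]
        · simp only [Pi.single_eq_same, one_mul]
          unfold corr
          simp_rw [spin_sq, mul_one]
          exact sum_gibbs β g
        · intro k _ hk
          simp [Pi.single_eq_of_ne hk]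
        · intro h; exact absurd (mem_univ i) h
      · intro j _ hj
        simp [Pi.single_eq_of_ne hj]
      · intro h; exact absurd (mem_univ i) h
    rw [h2, h3, div_one] at h1
    exact h1

end Vale.Agent.Results.P150.A_GapCovariance
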