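import Mathlib

/-!
# P150: the spectral gap of SK Glauber dynamics is at most `1 / (n E[R₁₂²])`

For every realisation of the disorder and every `β`, the spectral gap of heat-bath Glauber dynamics
of the Sherrington-Kirkpatrick Gibbs measure satisfies `gap ≤ 1 / (n * ⟨R₁₂²⟩)`, where `R₁₂` is the
overlap of two independent samples (replicas) of the Gibbs measure.
-/

namespace Vale.Agent.Results.P150.GapOverlap

open Finset

variable {n : ℕ}

/-- The spin value `±1` of site `i` in the configuration `x`. -/
def spin (x : Fin n → Bool) (i : Fin n) : ℝ := if x i then 1 else -1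

/-- The exponent `(β / √n) ∑_{i<j} g i j x_i x_j` of the SK Gibbs weight. -/
noncomputable def energy (β : ℝ) (g : Fin n → Fin n → ℝ) (x : Fin n → Bool) : ℝ :=
  β / Real.sqrt n * ∑ i, ∑ j ∈ univ.filter (fun j => i < j), g i j * spin x i * spin x j

/-- The SK Gibbs measure `μ(x) = exp(energy x) / Z`. -/
noncomputable def gibbs (β : ℝ) (g : Fin n → Fin n → ℝ) (x : Fin n → Bool) : ℝ :=
  Real.exp (energy β g x) / ∑ y, Real.exp (energy β g y)

/-- The configuration `x` with the spin at `i` flipped. -/
def flip (x : Fin n → Bool) (i : Fin n) : Fin n → Bool := Function.update x i (!x i)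

/-- `Q_i f`: the conditional expectation of `f` under `μ` given the spins off `i`. -/
noncomputable def condExp (β : ℝ) (g : Fin n → Fin n → ℝ) (i : Fin n)
    (f : (Fin n → Bool) → ℝ) (x : Fin n → Bool) : ℝ :=
  (gibbs β g x * f x + gibbs β g (flip x i) * f (flip x i)) /
    (gibbs β g x + gibbs β g (flip x i))

/-- The generator `L = ∑_i (Q_i - I)` of continuous-time heat-bath Glauber dynamics. -/
noncomputable def gen (β : ℝ) (g : Fin n → Fin n → ℝ) (f : (Fin n → Bool) → ℝ)
    (x : Fin n → Bool) : ℝ := ∑ i, (condExp β g i f x - f x)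

/-- The Dirichlet form `-⟨f, L f⟩` in `L²(μ)`. -/
noncomputable def dirichlet (β : ℝ) (g : Fin n → Fin n → ℝ) (f : (Fin n → Bool) → ℝ) : ℝ :=
  -∑ x, gibbs β g x * (f x * gen β g f x)

/-- The variance of `f` under `μ`. -/
noncomputable def variance (β : ℝ) (g : Fin n → Fin n → ℝ) (f : (Fin n → Bool) → ℝ) : ℝ :=
  ∑ x, gibbs β g x * (f x - ∑ y, gibbs β g y * f y) ^ 2

/-- The spectral gap of `-L` on `L²(μ)`, by its variational formula: the infimum of
`-⟨f, L f⟩ / Var f` over the functions `f` of non-zero variance. -/
noncomputable def gap (β : ℝ) (g : Fin n → Fin n → ℝ) : ℝ :=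
  sInf {r | ∃ f : (Fin n → Bool) → ℝ, variance β g f ≠ 0 ∧
    r = dirichlet β g f / variance β g f}

/-- The overlap `R(x, y) = n⁻¹ ∑_i x_i y_i` of two configurations. -/
noncomputable def overlap (x y : Fin n → Bool) : ℝ := (∑ i, spin x i * spin y i) / n

/-- The second moment of the overlap of two independent samples of `μ`. -/
noncomputable def overlapSq (β : ℝ) (g : Fin n → Fin n → ℝ) : ℝ :=
  ∑ x, ∑ y, gibbs β g x * gibbs β g y * overlap x y ^ 2

lemma spin_sq (x : Fin n → Bool) (i : Fin n) : spin x i * spin x i = 1 := by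
  unfold spin; split_ifs <;> norm_num

lemma gibbs_pos (β : ℝ) (g : Fin n → Fin n → ℝ) (x : Fin n → Bool) : 0 < gibbs β g x := by
  unfold gibbs
  apply div_pos (Real.exp_pos _)
  exact sum_pos (fun y _ => Real.exp_pos _) ⟨x, mem_univ x⟩

lemma sum_gibbs (β : ℝ) (g : Fin n → Fin n → ℝ) : ∑ x, gibbs β g x = 1 := by
  unfold gibbs
  rw [← sum_div]
  apply div_self
  exact (sum_pos (fun y _ => Real.exp_pos _) ⟨fun _ => true, mem_univ _⟩).ne'

lemma flip_flip (x : Fin n → Bool) (i : Fin n) : flip (flip x i) i = x := by
  unfold flip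
  ext j
  by_cases h : j = i
  · subst h; simp
  · simp [Function.update_of_ne h]

/-- Flipping the spin at `i`, as a permutation of the configurations. -/
def flipEquiv (i : Fin n) : (Fin n → Bool) ≃ (Fin n → Bool) where
  toFun x := flip x i
  invFun x := flip x i
  left_inv x := flip_flip x i
  right_inv x := flip_flip x i

lemma spin_flip_self (x : Fin n → Bool) (i : Fin n) : spin (flip x i) i = -spin x i := by
  unfold spin flip
  cases h : x i <;> simp

lemma spin_flip_of_ne (x : Fin n → Bool) {i j : Fin n} (h : j ≠ i) :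
    spin (flip x i) j = spin x j := by
  unfold spin flip
  simp [Function.update_of_ne h]

/-- The symmetric expression of the Dirichlet form. -/
lemma dirichlet_eq (β : ℝ) (g : Fin n → Fin n → ℝ) (f : (Fin n → Bool) → ℝ) :
    dirichlet β g f = ∑ i, ∑ x, (1 / 2) * (gibbs β g x * gibbs β g (flip x i) /
      (gibbs β g x + gibbs β g (flip x i))) * (f x - f (flip x i)) ^ 2 := by
  have h1 : ∀ i x, gibbs β g x * (f x * (condExp β g i f x - f x)) =
      -(gibbs β g x * gibbs β g (flip x i) / (gibbs β g x + gibbs β g (flip x i)) *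
        (f x * (f x - f (flip x i)))) := by
    intro i x
    have ha := gibbs_pos β g x
    have hb := gibbs_pos β g (flip x i)
    unfold condExp
    field_simp
    ring
  have h2 : dirichlet β g f = ∑ i, ∑ x, gibbs β g x * gibbs β g (flip x i) /
      (gibbs β g x + gibbs β g (flip x i)) * (f x * (f x - f (flip x i))) := by
    unfold dirichlet gen
    simp_rw [mul_sum]
    rw [sum_comm, ← sum_neg_distrib]
    apply sum_congr rfl
    intro i _
    rw [← sum_neg_distrib]
    apply sum_congr rfl
    intro x _
    rw [h1 i x, neg_neg]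
  rw [h2]
  apply sum_congr rfl
  intro i _
  have h3 : ∑ x, gibbs β g x * gibbs β g (flip x i) /
      (gibbs β g x + gibbs β g (flip x i)) * (f x * (f x - f (flip x i))) =
      ∑ x, gibbs β g x * gibbs β g (flip x i) /
      (gibbs β g x + gibbs β g (flip x i)) * (f (flip x i) * (f (flip x i) - f x)) := by
    rw [← Equiv.sum_comp (flipEquiv i)]
    apply sum_congr rfl
    intro x _
    simp only [flipEquiv, Equiv.coe_fn_mk, flip_flip]
    rw [mul_comm (gibbs β g (flip x i)) (gibbs β g x), add_comm (gibbs β g (flip x i))]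
  have h4 : ∀ S T : ℝ, S = T → S = (1 / 2) * (S + T) := by intro S T h; rw [h]; ring
  rw [h4 _ _ h3, ← sum_add_distrib, mul_sum]
  apply sum_congr rfl
  intro x _
  ring

lemma dirichlet_nonneg (β : ℝ) (g : Fin n → Fin n → ℝ) (f : (Fin n → Bool) → ℝ) :
    0 ≤ dirichlet β g f := by
  rw [dirichlet_eq]
  apply sum_nonneg; intro i _
  apply sum_nonneg; intro x _
  have ha := gibbs_pos β g x
  have hb := gibbs_pos β g (flip x i)
  positivity

lemma variance_nonneg (β : ℝ) (g : Fin n → Fin n → ℝ) (f : (Fin n → Bool) → ℝ) :
    0 ≤ variance β g f := by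
  unfold variance
  apply sum_nonneg; intro x _
  have ha := gibbs_pos β g x
  positivity

/-- The global spin flip. -/
def negEquiv : (Fin n → Bool) ≃ (Fin n → Bool) where
  toFun x := fun i => !x i
  invFun x := fun i => !x i
  left_inv x := by ext i; simp
  right_inv x := by ext i; simp

lemma spin_neg (x : Fin n → Bool) (i : Fin n) : spin (negEquiv x) i = -spin x i := by
  unfold spin negEquiv
  cases h : x i <;> simp [h]

lemma energy_neg (β : ℝ) (g : Fin n → Fin n → ℝ) (x : Fin n → Bool) :
    energy β g (negEquiv x) = energy β g x := by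
  unfold energy
  congr 1
  apply sum_congr rfl; intro i _
  apply sum_congr rfl; intro j _
  rw [spin_neg, spin_neg]; ring

lemma gibbs_neg (β : ℝ) (g : Fin n → Fin n → ℝ) (x : Fin n → Bool) :
    gibbs β g (negEquiv x) = gibbs β g x := by
  unfold gibbs
  rw [energy_neg]

theorem result (hn : 2 ≤ n) (β : ℝ) (g : Fin n → Fin n → ℝ) :
    0 < overlapSq β g ∧ gap β g ≤ 1 / (n * overlapSq β g) := by
  have hnR : (0 : ℝ) < n := by exact_mod_cast (by omega : 0 < n)
  -- test functions: the overlap with a fixed configuration
  set F : (Fin n → Bool) → (Fin n → Bool) → ℝ := fun y x => ∑ i, spin x i * spin y i with hF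
  have hmean : ∀ y, ∑ x, gibbs β g x * F y x = 0 := by
    intro y
    have h1 : ∑ x, gibbs β g x * F y x = ∑ x, gibbs β g x * (-F y x) := by
      conv_lhs => rw [← Equiv.sum_comp negEquiv]
      apply sum_congr rfl
      intro x _
      rw [gibbs_neg]
      congr 1
      simp only [hF]
      rw [← sum_neg_distrib]
      apply sum_congr rfl
      intro i _
      rw [spin_neg]; ring
    have h2 : ∑ x, gibbs β g x * (-F y x) = -∑ x, gibbs β g x * F y x := by
      rw [← sum_neg_distrib]; apply sum_congr rfl; intro x _; ring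
    linarith
  have hvar : ∀ y, variance β g (F y) = ∑ x, gibbs β g x * F y x ^ 2 := by
    intro y
    unfold variance
    rw [hmean y]
    simp
  have hFov : ∀ x y, F y x ^ 2 = (n : ℝ) ^ 2 * overlap x y ^ 2 := by
    intro x y
    unfold overlap
    simp only [hF]
    field_simp
  -- the average of the variances
  have havg : ∑ y, gibbs β g y * variance β g (F y) = (n : ℝ) ^ 2 * overlapSq β g := by
    unfold overlapSq
    rw [sum_comm, mul_sum]
    apply sum_congr rfl
    intro y _
    rw [hvar y, mul_sum, mul_sum]
    apply sum_congr rfl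
    intro x _
    rw [hFov x y]; ring
  -- positivity of the second moment of the overlap
  have hqpos : 0 < overlapSq β g := by
    unfold overlapSq
    have hterm : ∀ x y : Fin n → Bool, 0 ≤ gibbs β g x * gibbs β g y * overlap x y ^ 2 := by
      intro x y
      have ha := gibbs_pos β g x
      have hb := gibbs_pos β g y
      positivity
    set x0 : Fin n → Bool := fun _ => true with hx0
    have h1 : 0 < gibbs β g x0 * gibbs β g x0 * overlap x0 x0 ^ 2 := by
      have ha := gibbs_pos β g x0
      have hov : overlap x0 x0 = 1 := by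
        unfold overlap
        simp_rw [spin_sq]
        simp [hnR.ne']
      rw [hov]; positivity
    calc 0 < gibbs β g x0 * gibbs β g x0 * overlap x0 x0 ^ 2 := h1
      _ ≤ ∑ y, gibbs β g x0 * gibbs β g y * overlap x0 y ^ 2 :=
          single_le_sum (f := fun y => gibbs β g x0 * gibbs β g y * overlap x0 y ^ 2)
            (fun y _ => hterm x0 y) (mem_univ x0)
      _ ≤ _ := single_le_sum (f := fun x => ∑ y, gibbs β g x * gibbs β g y * overlap x y ^ 2)
            (fun x _ => sum_nonneg (fun y _ => hterm x y)) (mem_univ x0)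
  refine ⟨hqpos, ?_⟩
  -- a good reference configuration
  obtain ⟨y, hy⟩ : ∃ y, (n : ℝ) ^ 2 * overlapSq β g ≤ variance β g (F y) := by
    have h1 : ∑ y, gibbs β g y * ((n : ℝ) ^ 2 * overlapSq β g) ≤
        ∑ y, gibbs β g y * variance β g (F y) := by
      rw [havg, ← sum_mul, sum_gibbs, one_mul]
    obtain ⟨y, _, hy⟩ := exists_le_of_sum_le ⟨fun _ => true, mem_univ _⟩ h1
    exact ⟨y, le_of_mul_le_mul_left hy (gibbs_pos β g y)⟩
  have hVpos : 0 < variance β g (F y) := lt_of_lt_of_le (by positivity) hy
  -- the Dirichlet form of the test function is at most n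
  have hdir : dirichlet β g (F y) ≤ n := by
    rw [dirichlet_eq]
    have h1 : ∀ i x, (F y x - F y (flip x i)) ^ 2 = 4 := by
      intro i x
      have h2 : F y x - F y (flip x i) = 2 * (spin x i * spin y i) := by
        simp only [hF]
        rw [← sum_sub_distrib]
        rw [sum_eq_single i]
        · rw [spin_flip_self]; ring
        · intro j _ hj
          rw [spin_flip_of_ne x hj]; ring
        · intro h; exact absurd (mem_univ i) h
      rw [h2]
      have h3 := spin_sq x i
      have h4 := spin_sq y i
      calc (2 * (spin x i * spin y i)) ^ 2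
          = 4 * ((spin x i * spin x i) * (spin y i * spin y i)) := by ring
        _ = 4 := by rw [h3, h4]; norm_num
    have h5 : ∀ i, ∑ x, (1 / 2) * (gibbs β g x * gibbs β g (flip x i) /
        (gibbs β g x + gibbs β g (flip x i))) * (F y x - F y (flip x i)) ^ 2 ≤ 1 := by
      intro i
      have h6 : ∀ x, (1 / 2) * (gibbs β g x * gibbs β g (flip x i) /
          (gibbs β g x + gibbs β g (flip x i))) * (F y x - F y (flip x i)) ^ 2 ≤
          (1 / 2) * (gibbs β g x + gibbs β g (flip x i)) := by
        intro x
        rw [h1 i x]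
        have ha := gibbs_pos β g x
        have hb := gibbs_pos β g (flip x i)
        have h7 : gibbs β g x * gibbs β g (flip x i) / (gibbs β g x + gibbs β g (flip x i)) ≤
            (gibbs β g x + gibbs β g (flip x i)) / 4 := by
          rw [div_le_iff₀ (by positivity)]
          nlinarith [sq_nonneg (gibbs β g x - gibbs β g (flip x i))]
        linarith
      calc _ ≤ ∑ x, (1 / 2) * (gibbs β g x + gibbs β g (flip x i)) :=
            sum_le_sum (fun x _ => h6 x)
        _ = 1 := by
            rw [← mul_sum, sum_add_distrib, sum_gibbs]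
            have h8 : ∑ x, gibbs β g (flip x i) = 1 := by
              have := Equiv.sum_comp (flipEquiv i) (fun x => gibbs β g x)
              simp only [flipEquiv, Equiv.coe_fn_mk] at this
              rw [this, sum_gibbs]
            rw [h8]; norm_num
    calc _ ≤ ∑ _i : Fin n, (1 : ℝ) := sum_le_sum (fun i _ => h5 i)
      _ = n := by simp
  -- conclusion
  have hbdd : BddBelow {r | ∃ f : (Fin n → Bool) → ℝ, variance β g f ≠ 0 ∧
      r = dirichlet β g f / variance β g f} := by
    refine ⟨0, ?_⟩
    rintro r ⟨f, _, rfl⟩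
    exact div_nonneg (dirichlet_nonneg β g f) (variance_nonneg β g f)
  calc gap β g ≤ dirichlet β g (F y) / variance β g (F y) :=
        csInf_le hbdd ⟨F y, hVpos.ne', rfl⟩
    _ ≤ n / ((n : ℝ) ^ 2 * overlapSq β g) :=
        div_le_div₀ hnR.le hdir (by positivity) hy
    _ = 1 / (n * overlapSq β g) := by field_simp

end Vale.Agent.Results.P150.GapOverlap
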